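import Vale.Agent.P254.S.Iface
import Vale.Agent.P254.Bdl.B8

/-!
P254, block S, S-EX2: the level-`k` Sinkhorn descent with Gaussian source (helper450).

For `c`, `φ = φ_k[c]`, `ψ = ψ_k[φ]` the joint density `exp (k⟨x,z⟩ - k c x - k φ z - |z|²/2)` has
`z`-marginal `e^{-Q}` and `x`-marginal `exp (k ψ - k c)`.  Along `c ↦ ψ + V/k` the functional
`J = ∫ c e^{-V} + ∫ φ dγ` drops by `KL / k` and it is bounded below.
-/

set_option linter.all false

open MeasureTheory Filter Set
open scoped Topology

namespace Vale.Agent.P254.S.EX2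

open Vale.Agent.P227.M Vale.Agent.P227.M.MM

variable {n : ℕ}

theorem iadd {f g : E n → ℝ} (hf : Integrable f) (hg : Integrable g) :
    Integrable (fun x => f x + g x) := hf.add hg

theorem isub {f g : E n → ℝ} (hf : Integrable f) (hg : Integrable g) :
    Integrable (fun x => f x - g x) := hf.sub hg

theorem cont_Q : Continuous (Q : E n → ℝ) := by
  unfold Q
  fun_prop

theorem gr_Q : Gr (Q : E n → ℝ) := by
  have h : (Q : E n → ℝ) = fun z => (1 / 2) * ‖z‖ ^ 2 := by
    funext z
    unfold Q
    ring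
  rw [h]
  exact (Gr.norm.pow 2).const_mul _

theorem integrable_gr_Q {f : E n → ℝ} (hf : Gr f) : Integrable (fun z => f z * Real.exp (-Q z)) := by
  obtain ⟨hfc, B, k, hB, hb⟩ := hf
  obtain ⟨D, hD, hd⟩ := growth_le_exp (a := 1 / 4) (by norm_num) k
  have hi := (Vale.Agent.P227.M.integrable_gauss (n := n) (a := 1 / 4) (by norm_num)).const_mul (B * D)
  refine hi.mono' ?_ (Filter.Eventually.of_forall fun x => ?_)
  · exact (hfc.mul (Real.continuous_exp.comp cont_Q.neg)).aestronglyMeasurable
  · rw [norm_mul, Real.norm_eq_abs, Real.norm_eq_abs, Real.abs_exp]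
    have h1 := hb x
    have h2 := hd ‖x‖ (norm_nonneg x)
    have h3 : Real.exp (-Q x) = Real.exp (-(1 / 2) * ‖x‖ ^ 2) := by
      unfold Q
      congr 1
      ring
    rw [h3]
    calc |f x| * Real.exp (-(1 / 2) * ‖x‖ ^ 2)
        ≤ (B * (D * Real.exp (1 / 4 * ‖x‖ ^ 2))) * Real.exp (-(1 / 2) * ‖x‖ ^ 2) :=
          mul_le_mul_of_nonneg_right (h1.trans (mul_le_mul_of_nonneg_left h2 hB)) (Real.exp_pos _).le
      _ = B * D * (Real.exp (1 / 4 * ‖x‖ ^ 2) * Real.exp (-(1 / 2) * ‖x‖ ^ 2)) := by ring
      _ = B * D * Real.exp (-(1 / 4) * ‖x‖ ^ 2) := by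
          rw [← Real.exp_add]
          congr 2
          ring

theorem integrable_Q : Integrable (fun z : E n => Real.exp (-Q z)) := by
  simpa using integrable_gr_Q (n := n) (Gr.const 1)

/-- the mass of the standard Gaussian -/
noncomputable def Zg (n : ℕ) : ℝ := ∫ z : E n, Real.exp (-Q z)

theorem Zg_pos : 0 < Zg n := integral_exp_pos integrable_Q

/-- a level-`k` triple -/
structure Lev (k : ℝ) (c φ ψ : E n → ℝ) : Prop where
  gc : Gr c
  gφ : Gr φ
  gψ : Gr ψ
  i1 : ∀ z : E n, Integrable fun x : E n => Real.exp (k * inner ℝ x z - k * c x)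
  e1 : ∀ z : E n, ∫ x : E n, Real.exp (k * inner ℝ x z - k * c x) = Real.exp (k * φ z)
  i2 : ∀ x : E n, Integrable fun z : E n => Real.exp (k * inner ℝ x z - k * φ z - Q z)
  e2 : ∀ x : E n, ∫ z : E n, Real.exp (k * inner ℝ x z - k * φ z - Q z) = Real.exp (k * ψ x)

/-- a normalised target potential -/
structure PotG (V : E n → ℝ) : Prop where
  gr : Gr V
  int : ∀ f : E n → ℝ, Gr f → Integrable fun x => f x * Real.exp (-V x)
  one : ∫ x, Real.exp (-V x) = 1

theorem PotG.i0 {V : E n → ℝ} (h : PotG V) : Integrable fun x => Real.exp (-V x) := by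
  simpa using h.int _ (Gr.const 1)

theorem measurable_inner2 : Measurable fun p : E n × E n => (inner ℝ p.1 p.2 : ℝ) :=
  (continuous_fst.inner continuous_snd).measurable

section lev

variable {k : ℝ} {c φ ψ c' φ' ψ' V : E n → ℝ}

/-- the joint density -/
noncomputable def jd (k : ℝ) (c φ : E n → ℝ) (x z : E n) : ℝ :=
  Real.exp (k * inner ℝ x z - k * c x - k * φ z - Q z)

theorem jd_pos (x z : E n) : 0 < jd k c φ x z := Real.exp_pos _

theorem measurable_jd (hc : Gr c) (hφ : Gr φ) : Measurable fun p : E n × E n => jd k c φ p.1 p.2 := by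
  unfold jd
  exact Real.measurable_exp.comp ((((measurable_inner2.const_mul k).sub
    ((hc.cont.measurable.comp measurable_fst).const_mul k)).sub
      ((hφ.cont.measurable.comp measurable_snd).const_mul k)).sub (cont_Q.measurable.comp measurable_snd))

/-- `∫_z` of a joint density of the form `c'`, `φ` -/
theorem Lev.int_z (h : Lev k c φ ψ) (c' : E n → ℝ) (x : E n) :
    Integrable (fun z => jd k c' φ x z) ∧ ∫ z, jd k c' φ x z = Real.exp (k * ψ x - k * c' x) := by
  have h1 : (fun z : E n => jd k c' φ x z)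
      = fun z => Real.exp (k * inner ℝ x z - k * φ z - Q z) * Real.exp (-(k * c' x)) := by
    funext z
    unfold jd
    rw [← Real.exp_add]
    congr 1
    ring
  rw [h1]
  refine ⟨(h.i2 x).mul_const _, ?_⟩
  rw [integral_mul_const, h.e2 x, ← Real.exp_add]
  congr 1

/-- `∫_x` of a joint density of the form `c'`, `φ`, where `φ' = φ_k[c']` -/
theorem Lev.int_x (h' : Lev k c' φ' ψ') (φ : E n → ℝ) (z : E n) :
    Integrable (fun x => jd k c' φ x z) ∧
      ∫ x, jd k c' φ x z = Real.exp (k * φ' z - k * φ z - Q z) := by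
  have h1 : (fun x : E n => jd k c' φ x z)
      = fun x => Real.exp (k * inner ℝ x z - k * c' x) * Real.exp (-(k * φ z) - Q z) := by
    funext x
    unfold jd
    rw [← Real.exp_add]
    congr 1
    ring
  rw [h1]
  refine ⟨(h'.i1 z).mul_const _, ?_⟩
  rw [integral_mul_const, h'.e1 z, ← Real.exp_add]
  congr 1
  ring

theorem Lev.int_joint (h : Lev k c φ ψ) :
    Integrable (fun p : E n × E n => jd k c φ p.1 p.2) ((volume : Measure (E n)).prod volume) := by
  rw [integrable_prod_iff' (measurable_jd h.gc h.gφ).aestronglyMeasurable]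
  refine ⟨Eventually.of_forall fun z => (h.int_x φ z).1, ?_⟩
  refine integrable_Q.congr (Eventually.of_forall fun z => ?_)
  simp only [Real.norm_eq_abs, abs_of_pos (jd_pos _ _)]
  rw [(h.int_x φ z).2]
  congr 1
  ring

/-- potential of the `x`-marginal -/
noncomputable def Wg (k : ℝ) (c ψ : E n → ℝ) (x : E n) : ℝ := k * c x - k * ψ x + Real.log (Zg n)

theorem exp_Wg (k : ℝ) (c ψ : E n → ℝ) (x : E n) :
    Real.exp (-Wg k c ψ x) = Real.exp (k * ψ x - k * c x) / Zg n := by
  unfold Wg
  rw [neg_add, Real.exp_add, Real.exp_neg (Real.log _), Real.exp_log Zg_pos, div_eq_mul_inv]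
  congr 2
  ring

theorem Lev.int_W (h : Lev k c φ ψ) : Integrable (fun x : E n => Real.exp (-Wg k c ψ x)) := by
  have h1 := h.int_joint.integral_prod_left
  refine (h1.div_const (Zg n)).congr (Eventually.of_forall fun x => ?_)
  simp only
  rw [(h.int_z c x).2, exp_Wg]

theorem Lev.one_W (h : Lev k c φ ψ) : ∫ x : E n, Real.exp (-Wg k c ψ x) = 1 := by
  have h1 := integral_integral_swap (f := fun (x z : E n) => jd k c φ x z) h.int_joint
  simp only [(h.int_z c _).2, (h.int_x φ _).2] at h1
  simp only [exp_Wg, integral_div]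
  rw [h1]
  have h2 : (fun z : E n => Real.exp (k * φ z - k * φ z - Q z)) = fun z => Real.exp (-Q z) := by
    funext z
    congr 1
    ring
  rw [h2]
  exact div_self Zg_pos.ne'

/-- the mass inequality -/
theorem Lev.mass (h : Lev k c φ ψ) (h' : Lev k c' φ' ψ') (hV : PotG V) {s : ℝ}
    (hT : ∀ x, k * c' x = V x + k * ψ x + s) :
    k * (∫ z, φ' z * Real.exp (-Q z)) ≤ k * (∫ z, φ z * Real.exp (-Q z)) - Zg n * (s + Real.log (Zg n)) := by
  have hz : ∀ x : E n, ∫ z, jd k c' φ x z = Real.exp (-s) * Real.exp (-V x) := fun x => by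
    rw [(h.int_z c' x).2, ← Real.exp_add]
    congr 1
    have := hT x
    linarith
  have hG : Integrable (fun p : E n × E n => jd k c' φ p.1 p.2) ((volume : Measure (E n)).prod volume) := by
    rw [integrable_prod_iff (measurable_jd h'.gc h.gφ).aestronglyMeasurable]
    refine ⟨Eventually.of_forall fun x => (h.int_z c' x).1, ?_⟩
    refine (hV.i0.const_mul (Real.exp (-s))).congr (Eventually.of_forall fun x => ?_)
    simp only [Real.norm_eq_abs, abs_of_pos (jd_pos _ _)]
    exact (hz x).symm
  have hswap := integral_integral_swap (f := fun (x z : E n) => jd k c' φ x z) hG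
  simp only [hz, (h'.int_x φ _).2, integral_const_mul, hV.one, mul_one] at hswap
  have hyi : Integrable fun z : E n => Real.exp (k * φ' z - k * φ z - Q z) := by
    refine hG.integral_prod_right.congr (Eventually.of_forall fun z => ?_)
    exact (h'.int_x φ z).2
  have hpt : ∀ z : E n, (k * (φ' z - φ z) + (s + Real.log (Zg n))) * Real.exp (-Q z)
      ≤ Zg n * Real.exp s * Real.exp (k * φ' z - k * φ z - Q z) - Real.exp (-Q z) := by
    intro z
    have hu : 0 < Zg n * Real.exp (s + (k * φ' z - k * φ z)) := mul_pos Zg_pos (Real.exp_pos _)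
    have h1 := Real.log_le_sub_one_of_pos hu
    rw [Real.log_mul Zg_pos.ne' (Real.exp_pos _).ne', Real.log_exp] at h1
    have h2 := mul_le_mul_of_nonneg_right h1 (Real.exp_pos (-Q z)).le
    refine le_trans (le_of_eq ?_) (h2.trans (le_of_eq ?_))
    · ring
    · rw [Real.exp_add, sub_eq_add_neg (k * φ' z - k * φ z) (Q z), Real.exp_add (k * φ' z - k * φ z)]
      ring
  have i1 : Integrable fun z : E n => (k * (φ' z - φ z) + (s + Real.log (Zg n))) * Real.exp (-Q z) :=
    integrable_gr_Q (((h'.gφ.sub h.gφ).const_mul k).add (Gr.const _))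
  have i2 : Integrable fun z : E n => Zg n * Real.exp s * Real.exp (k * φ' z - k * φ z - Q z)
      - Real.exp (-Q z) := (hyi.const_mul _).sub integrable_Q
  have h3 := integral_mono i1 i2 hpt
  rw [integral_sub (hyi.const_mul _) integrable_Q, integral_const_mul, ← hswap] at h3
  have h4 : Zg n * Real.exp s * Real.exp (-s) - ∫ z : E n, Real.exp (-Q z) = 0 := by
    rw [mul_assoc, ← Real.exp_add, add_neg_cancel, Real.exp_zero, mul_one]
    exact sub_self _
  rw [h4] at h3
  have j1 := integrable_gr_Q h'.gφ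
  have j2 := integrable_gr_Q h.gφ
  have h5 : (fun z : E n => (k * (φ' z - φ z) + (s + Real.log (Zg n))) * Real.exp (-Q z))
      = fun z => (k * (φ' z * Real.exp (-Q z)) - k * (φ z * Real.exp (-Q z)))
        + (s + Real.log (Zg n)) * Real.exp (-Q z) := by
    funext z
    ring
  rw [h5, integral_add (isub (j1.const_mul k) (j2.const_mul k)) (integrable_Q.const_mul _),
    integral_sub (j1.const_mul k) (j2.const_mul k), integral_const_mul, integral_const_mul,
    integral_const_mul] at h3
  have h6 : ∫ z : E n, Real.exp (-Q z) = Zg n := rfl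
  rw [h6] at h3
  linarith

/-- the functional -/
noncomputable def Jg (V c φ : E n → ℝ) : ℝ :=
  (∫ x, c x * Real.exp (-V x)) + (∫ z, φ z * Real.exp (-Q z)) / Zg n

/-- relative entropy -/
noncomputable def KLg (k : ℝ) (V c ψ : E n → ℝ) : ℝ := ∫ x, (Wg k c ψ x - V x) * Real.exp (-V x)

theorem gr_Wg (hc : Gr c) (hψ : Gr ψ) : Gr (Wg k c ψ) := by
  unfold Wg
  exact ((hc.const_mul k).sub (hψ.const_mul k)).add (Gr.const _)

theorem KLg_eq (h : Lev k c φ ψ) (hV : PotG V) :
    KLg k V c ψ = k * (∫ x, c x * Real.exp (-V x)) - k * (∫ x, ψ x * Real.exp (-V x))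
      + Real.log (Zg n) - ∫ x, V x * Real.exp (-V x) := by
  unfold KLg
  have h1 : (fun x : E n => (Wg k c ψ x - V x) * Real.exp (-V x)) = fun x =>
      ((k * (c x * Real.exp (-V x)) - k * (ψ x * Real.exp (-V x))) + Real.log (Zg n) * Real.exp (-V x))
        - V x * Real.exp (-V x) := by
    funext x
    unfold Wg
    ring
  have i1 := hV.int _ h.gc
  have i2 := hV.int _ h.gψ
  have i3 := hV.int _ hV.gr
  rw [h1, integral_sub (iadd (isub (i1.const_mul k) (i2.const_mul k)) (hV.i0.const_mul _)) i3,
    integral_add (isub (i1.const_mul k) (i2.const_mul k)) (hV.i0.const_mul _),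
    integral_sub (i1.const_mul k) (i2.const_mul k), integral_const_mul, integral_const_mul,
    integral_const_mul, hV.one, mul_one]

/-- **descent** -/
theorem Lev.descent (hk : 0 < k) (h : Lev k c φ ψ) (h' : Lev k c' φ' ψ') (hV : PotG V) {s : ℝ}
    (hT : ∀ x, k * c' x = V x + k * ψ x + s) :
    Jg V c' φ' ≤ Jg V c φ - KLg k V c ψ / k := by
  have h1 := h.mass h' hV hT
  have h2 := KLg_eq h hV
  have i1 := hV.int _ h'.gc
  have i2 := hV.int _ h.gψ
  have i3 := hV.int _ hV.gr
  have h3 : k * (∫ x, c' x * Real.exp (-V x)) = (∫ x, V x * Real.exp (-V x))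
      + k * (∫ x, ψ x * Real.exp (-V x)) + s := by
    rw [← integral_const_mul]
    have e : (fun x : E n => k * (c' x * Real.exp (-V x))) = fun x =>
        (V x * Real.exp (-V x) + k * (ψ x * Real.exp (-V x))) + s * Real.exp (-V x) := by
      funext x
      rw [← mul_assoc, hT x]
      ring
    rw [e, integral_add (iadd i3 (i2.const_mul k)) (hV.i0.const_mul _), integral_add i3 (i2.const_mul k),
      integral_const_mul, integral_const_mul, hV.one, mul_one]
  have hZ : 0 < Zg n := Zg_pos
  unfold Jg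
  rw [h2]
  set A := ∫ x, c' x * Real.exp (-V x)
  set B := ∫ z, φ' z * Real.exp (-Q z)
  set C := ∫ x, c x * Real.exp (-V x)
  set D := ∫ z, φ z * Real.exp (-Q z)
  set P := ∫ x, ψ x * Real.exp (-V x)
  set R := ∫ x, V x * Real.exp (-V x)
  have h4 : B / Zg n ≤ D / Zg n - (s + Real.log (Zg n)) / k := by
    rw [div_le_iff₀ hZ]
    have h5 : (D / Zg n - (s + Real.log (Zg n)) / k) * Zg n = (k * D - Zg n * (s + Real.log (Zg n))) / k := by
      field_simp
    rw [h5, le_div_iff₀ hk]
    linarith
  have h6 : A = (R + k * P + s) / k := by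
    rw [eq_div_iff hk.ne']
    linarith
  have h7 : (k * C - k * P + Real.log (Zg n) - R) / k = C - (R + k * P + s) / k
      + (s + Real.log (Zg n)) / k := by
    field_simp
    ring
  rw [h7, h6]
  linarith

/-- pointwise lower bound (Jensen) -/
theorem Lev.lower (hk : 0 < k) (h : Lev k c φ ψ) (hV : PotG V) (z : E n) :
    (∫ x : E n, (inner ℝ x z : ℝ) * Real.exp (-V x)) + (∫ x, V x * Real.exp (-V x)) / k
      ≤ φ z + ∫ x, c x * Real.exp (-V x) := by
  have gin : Gr fun x : E n => (inner ℝ x z : ℝ) := by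
    have h1 : (fun x : E n => (inner ℝ x z : ℝ)) = fun x => ∑ i, z i * x i := by
      funext x
      rw [PiLp.inner_apply]
      refine Finset.sum_congr rfl fun i _ => ?_
      simp only [RCLike.inner_apply, conj_trivial]
    rw [h1]
    exact Gr.sum _ fun i _ => (Gr.coord i).const_mul _
  have i1 := hV.int _ h.gc
  have i3 := hV.int _ hV.gr
  have i4 := hV.int _ gin
  have hpt : ∀ x : E n, (1 + (k * inner ℝ x z - k * c x - k * φ z + V x)) * Real.exp (-V x)
      ≤ Real.exp (k * inner ℝ x z - k * c x) * Real.exp (-(k * φ z)) := by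
    intro x
    have h1 := Real.add_one_le_exp (k * inner ℝ x z - k * c x - k * φ z + V x)
    have h2 := mul_le_mul_of_nonneg_right h1 (Real.exp_pos (-V x)).le
    rw [← Real.exp_add] at h2
    rw [← Real.exp_add]
    refine le_trans (le_of_eq ?_) (h2.trans (le_of_eq ?_))
    · ring
    · congr 1
      ring
  have e : (fun x : E n => (1 + (k * inner ℝ x z - k * c x - k * φ z + V x)) * Real.exp (-V x))
      = fun x => (((1 - k * φ z) * Real.exp (-V x) + k * ((inner ℝ x z : ℝ) * Real.exp (-V x)))
        - k * (c x * Real.exp (-V x))) + V x * Real.exp (-V x) := by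
    funext x
    ring
  have ii : Integrable fun x : E n => (((1 - k * φ z) * Real.exp (-V x)
      + k * ((inner ℝ x z : ℝ) * Real.exp (-V x))) - k * (c x * Real.exp (-V x))) + V x * Real.exp (-V x) :=
    iadd (isub (iadd (hV.i0.const_mul _) (i4.const_mul k)) (i1.const_mul k)) i3
  have h3 := integral_mono (f := fun x : E n => (1 + (k * inner ℝ x z - k * c x - k * φ z + V x))
    * Real.exp (-V x)) (by rw [e]; exact ii) ((h.i1 z).mul_const _) hpt
  rw [integral_mul_const, h.e1 z, ← Real.exp_add, add_neg_cancel, Real.exp_zero, e,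
    integral_add (isub (iadd (hV.i0.const_mul _) (i4.const_mul k)) (i1.const_mul k)) i3,
    integral_sub (iadd (hV.i0.const_mul _) (i4.const_mul k)) (i1.const_mul k),
    integral_add (hV.i0.const_mul _) (i4.const_mul k), integral_const_mul, integral_const_mul,
    integral_const_mul, hV.one, mul_one] at h3
  set A := ∫ x : E n, (inner ℝ x z : ℝ) * Real.exp (-V x)
  set B := ∫ x, c x * Real.exp (-V x)
  set R := ∫ x, V x * Real.exp (-V x)
  have h4 : k * A + R ≤ k * (φ z + B) := by linarith
  have h5 : A + R / k = (k * A + R) / k := by field_simp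
  rw [h5, div_le_iff₀ hk]
  linarith

theorem odd_int (m : Fin n → ℝ) : ∫ z : E n, (∑ i, z i * m i) * Real.exp (-Q z) = 0 := by
  have h1 := integral_neg_eq_self (fun z : E n => (∑ i, z i * m i) * Real.exp (-Q z)) volume
  have h2 : (fun z : E n => (∑ i, (-z) i * m i) * Real.exp (-Q (-z)))
      = fun z => -((∑ i, z i * m i) * Real.exp (-Q z)) := by
    funext z
    have h3 : Q (-z) = Q z := by
      unfold Q
      rw [norm_neg]
    rw [h3, ← neg_mul, ← Finset.sum_neg_distrib]
    congr 1
    refine Finset.sum_congr rfl fun i _ => ?_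
    simp
  rw [h2, integral_neg] at h1
  linarith

theorem inner_int (hV : PotG V) (z : E n) :
    ∫ x : E n, (inner ℝ x z : ℝ) * Real.exp (-V x) = ∑ i, z i * ∫ x : E n, x i * Real.exp (-V x) := by
  have h1 : (fun x : E n => (inner ℝ x z : ℝ) * Real.exp (-V x))
      = fun x => ∑ i, z i * (x i * Real.exp (-V x)) := by
    funext x
    rw [PiLp.inner_apply, Finset.sum_mul]
    refine Finset.sum_congr rfl fun i _ => ?_
    simp only [RCLike.inner_apply, conj_trivial]
    ring
  rw [h1, integral_finsetSum _ fun i _ => (hV.int _ (Gr.coord i)).const_mul _]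
  refine Finset.sum_congr rfl fun i _ => ?_
  rw [integral_const_mul]

/-- the functional is bounded below -/
theorem Lev.Jg_ge (hk : 0 < k) (h : Lev k c φ ψ) (hV : PotG V) :
    (∫ x, V x * Real.exp (-V x)) / k ≤ Jg V c φ := by
  set m : Fin n → ℝ := fun i => ∫ x : E n, x i * Real.exp (-V x) with hm
  set R := ∫ x, V x * Real.exp (-V x) with hR
  set B := ∫ x, c x * Real.exp (-V x) with hB
  have hpt : ∀ z : E n, (∑ i, z i * m i) * Real.exp (-Q z) + (R / k) * Real.exp (-Q z)
      ≤ φ z * Real.exp (-Q z) + B * Real.exp (-Q z) := by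
    intro z
    have h1 := h.lower hk hV z
    rw [inner_int hV z] at h1
    have h2 := mul_le_mul_of_nonneg_right h1 (Real.exp_pos (-Q z)).le
    refine le_trans (le_of_eq ?_) (h2.trans (le_of_eq ?_)) <;> ring
  have g1 : Gr fun z : E n => ∑ i, z i * m i := Gr.sum _ fun i _ => by
    have := (Gr.coord (n := n) i).const_mul (m i)
    refine ?_
    have e : (fun z : E n => z i * m i) = fun z => m i * z i := by
      funext z
      ring
    rw [e]
    exact this
  have i1 := integrable_gr_Q g1
  have i2 := integrable_gr_Q h.gφ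
  have h3 := integral_mono (iadd i1 (integrable_Q.const_mul (R / k))) (iadd i2 (integrable_Q.const_mul B)) hpt
  rw [integral_add i1 (integrable_Q.const_mul _), integral_add i2 (integrable_Q.const_mul _),
    integral_const_mul, integral_const_mul, odd_int, zero_add] at h3
  have hZ : 0 < Zg n := Zg_pos
  have h6 : ∫ z : E n, Real.exp (-Q z) = Zg n := rfl
  rw [h6] at h3
  unfold Jg
  rw [← hB]
  have h7 : R / k ≤ ((∫ z, φ z * Real.exp (-Q z)) + B * Zg n) / Zg n := by
    rw [le_div_iff₀ hZ]
    exact h3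
  refine h7.trans (le_of_eq ?_)
  field_simp
  ring

/-- **small relative entropy along the iteration** -/
theorem exists_KL (hk : 0 < k) (hV : PotG V) (c φ ψ : ℕ → E n → ℝ)
    (hL : ∀ i, Lev k (c i) (φ i) (ψ i)) (s : ℕ → ℝ)
    (hT : ∀ i x, k * c (i + 1) x = V x + k * ψ i x + s i) {ε : ℝ} (hε : 0 < ε) :
    ∃ i, KLg k V (c i) (ψ i) ≤ ε := by
  by_contra hcon
  simp only [not_exists, not_le] at hcon
  have hJi : ∀ i : ℕ, Jg V (c i) (φ i) ≤ Jg V (c 0) (φ 0) - i * (ε / k) := by
    intro i
    induction i with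
    | zero => simp
    | succ i ih =>
      have h1 := (hL i).descent hk (hL (i + 1)) hV (hT i)
      have h2 := (hcon i).le
      have h3 : ε / k ≤ KLg k V (c i) (ψ i) / k := by gcongr
      push_cast
      linarith
  obtain ⟨i, hi⟩ := exists_nat_gt ((Jg V (c 0) (φ 0) - (∫ x, V x * Real.exp (-V x)) / k) / (ε / k))
  have h1 := (hL i).Jg_ge hk hV
  have h2 := hJi i
  rw [div_lt_iff₀ (by positivity)] at hi
  linarith

end lev

end Vale.Agent.P254.S.EX2
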