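import Vale.Agent.P254.S.EX2.Desc450

/-!
P254, block S, S-EX2, second half: the law at level `k` and the theorem `StmtDescG` (helper450).
-/

set_option linter.all false

open MeasureTheory Filter Set
open scoped Topology

namespace Vale.Agent.P254.S.EX2

open Vale.Agent.P227.M Vale.Agent.P227.M.MM

variable {n : ℕ}

section cd

variable {k A : ℝ} {c φ ψ V : E n → ℝ}

/-- conditional density of `x` given `z` -/
noncomputable def cd (k : ℝ) (c φ : E n → ℝ) (z x : E n) : ℝ :=
  Real.exp (k * inner ℝ x z - k * c x - k * φ z)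

theorem cd_pos (z x : E n) : 0 < cd k c φ z x := Real.exp_pos _

theorem Lev.cd_tilt (h : Lev k c φ ψ) (y z : E n) (s : ℝ) :
    Integrable (fun x : E n => Real.exp (k * (inner ℝ x z - s)) * cd k c φ y x) ∧
    ∫ x : E n, Real.exp (k * (inner ℝ x z - s)) * cd k c φ y x = Real.exp (k * (φ (y + z) - φ y - s)) := by
  have h1 : (fun x : E n => Real.exp (k * (inner ℝ x z - s)) * cd k c φ y x)
      = fun x => Real.exp (k * inner ℝ x (y + z) - k * c x) * Real.exp (-(k * s) - k * φ y) := by
    funext x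
    simp only [cd]
    rw [← Real.exp_add, ← Real.exp_add, inner_add_right]
    congr 1
    ring
  rw [h1]
  refine ⟨(h.i1 (y + z)).mul_const _, ?_⟩
  rw [integral_mul_const, h.e1, ← Real.exp_add]
  congr 1
  ring

theorem Lev.integrable_cd (h : Lev k c φ ψ) (y : E n) : Integrable (cd k c φ y) := by
  refine (h.cd_tilt y 0 0).1.congr (Eventually.of_forall fun x => ?_)
  simp

theorem Lev.integral_cd (h : Lev k c φ ψ) (y : E n) : ∫ x : E n, cd k c φ y x = 1 := by
  have := (h.cd_tilt y 0 0).2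
  simpa using this

theorem measurable_cd (hc : Gr c) (y : E n) : Measurable (cd k c φ y) := by
  unfold cd
  have : Measurable fun x : E n => (inner ℝ x y : ℝ) := (continuous_id.inner continuous_const).measurable
  exact Real.measurable_exp.comp (((this.const_mul k).sub (hc.cont.measurable.const_mul k)).sub_const _)

/-- second moments in a direction -/
theorem Lev.second_moment (hk : 0 < k) (h : Lev k c φ ψ) (hA : 0 ≤ A) {y w : E n}
    (hsc : ∀ z, φ (y + z) ≤ φ y + inner ℝ w z + A / 2 * ‖z‖ ^ 2) {e : E n} (he : ‖e‖ = 1) :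
    Integrable (fun x : E n => (inner ℝ (x - w) e) ^ 2 * cd k c φ y x) ∧
      ∫ x : E n, (inner ℝ (x - w) e) ^ 2 * cd k c φ y x ≤ A / k := by
  have hm : Measurable fun x : E n => (inner ℝ (x - w) e : ℝ) :=
    ((continuous_id.sub continuous_const).inner continuous_const).measurable
  have key : ∀ r : ℝ, 0 < r → Integrable (fun x : E n => (2 + (k * (r * inner ℝ (x - w) e)) ^ 2) * cd k c φ y x) ∧
      ∫ x : E n, (2 + (k * (r * inner ℝ (x - w) e)) ^ 2) * cd k c φ y x ≤ 2 * Real.exp (k * (A / 2 * r ^ 2)) := by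
    intro r hr
    obtain ⟨i1, v1⟩ := h.cd_tilt y (r • e) (inner ℝ w (r • e))
    obtain ⟨i2, v2⟩ := h.cd_tilt y (-(r • e)) (inner ℝ w (-(r • e)))
    have hpt : ∀ x : E n, (2 + (k * (r * inner ℝ (x - w) e)) ^ 2) * cd k c φ y x ≤
        Real.exp (k * (inner ℝ x (r • e) - inner ℝ w (r • e))) * cd k c φ y x
        + Real.exp (k * (inner ℝ x (-(r • e)) - inner ℝ w (-(r • e)))) * cd k c φ y x := by
      intro x
      rw [← add_mul]
      refine mul_le_mul_of_nonneg_right ?_ (cd_pos y x).le
      have h1 : k * (inner ℝ x (r • e) - inner ℝ w (r • e)) = k * (r * inner ℝ (x - w) e) := by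
        rw [inner_smul_right, inner_smul_right, inner_sub_left]
        ring
      have h2 : k * (inner ℝ x (-(r • e)) - inner ℝ w (-(r • e))) = -(k * (r * inner ℝ (x - w) e)) := by
        rw [inner_neg_right, inner_neg_right, inner_smul_right, inner_smul_right, inner_sub_left]
        ring
      rw [h1, h2]
      exact LK.Dsc.two_add_sq_le _
    have hi : Integrable (fun x : E n => (2 + (k * (r * inner ℝ (x - w) e)) ^ 2) * cd k c φ y x) := by
      refine (iadd i1 i2).mono' ?_ (Eventually.of_forall fun x => ?_)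
      · exact (((((hm.const_mul r).const_mul k).pow_const 2).const_add 2).mul
          (measurable_cd h.gc y)).aestronglyMeasurable
      · rw [Real.norm_eq_abs, abs_of_nonneg (mul_nonneg (by positivity) (cd_pos y x).le)]
        exact hpt x
    refine ⟨hi, ?_⟩
    have h3 := integral_mono hi (iadd i1 i2) hpt
    rw [integral_add i1 i2, v1, v2] at h3
    have hn : ‖r • e‖ ^ 2 = r ^ 2 := by rw [norm_smul, he, mul_one, Real.norm_eq_abs, sq_abs]
    have h5 : Real.exp (k * (φ (y + r • e) - φ y - inner ℝ w (r • e))) ≤ Real.exp (k * (A / 2 * r ^ 2)) := by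
      refine Real.exp_le_exp.2 (mul_le_mul_of_nonneg_left ?_ hk.le)
      have := hsc (r • e)
      rw [hn] at this
      linarith
    have h6 : Real.exp (k * (φ (y + -(r • e)) - φ y - inner ℝ w (-(r • e)))) ≤ Real.exp (k * (A / 2 * r ^ 2)) := by
      refine Real.exp_le_exp.2 (mul_le_mul_of_nonneg_left ?_ hk.le)
      have := hsc (-(r • e))
      rw [norm_neg, hn] at this
      linarith
    linarith
  have hcd := h.integrable_cd y
  have h1 : Integrable (fun x : E n => (inner ℝ (x - w) e) ^ 2 * cd k c φ y x) := by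
    have := ((key 1 one_pos).1.sub (hcd.const_mul 2)).const_mul (1 / k ^ 2)
    refine this.congr (Eventually.of_forall fun x => ?_)
    simp only [Pi.sub_apply]
    field_simp
    ring
  refine ⟨h1, ?_⟩
  set m := ∫ x : E n, (inner ℝ (x - w) e) ^ 2 * cd k c φ y x with hm'
  have h2 : ∀ r : ℝ, 0 < r → 2 + k ^ 2 * r ^ 2 * m ≤ 2 * Real.exp (k * (A / 2 * r ^ 2)) := by
    intro r hr
    refine le_trans (le_of_eq ?_) (key r hr).2
    have h3 : (fun x : E n => (2 + (k * (r * inner ℝ (x - w) e)) ^ 2) * cd k c φ y x)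
        = fun x => 2 * cd k c φ y x + (k ^ 2 * r ^ 2) * ((inner ℝ (x - w) e) ^ 2 * cd k c φ y x) := by
      ext x
      ring
    rw [h3, integral_add (hcd.const_mul 2) (h1.const_mul _), integral_const_mul, integral_const_mul,
      h.integral_cd y]
    ring
  refine le_of_forall_pos_le_add fun δ hδ => ?_
  have hA1 : 0 < k * A / 2 + 1 := by positivity
  obtain ⟨r, hr0, hr1, hr2⟩ : ∃ r : ℝ, 0 < r ∧ k * (A / 2 * r ^ 2) ≤ 1 ∧ A ^ 2 / 2 * r ^ 2 ≤ δ := by
    have ht : Tendsto (fun r : ℝ => k * (A / 2 * r ^ 2)) (𝓝[>] 0) (𝓝 (k * (A / 2 * 0 ^ 2))) :=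
      (Continuous.tendsto (by fun_prop) 0).mono_left nhdsWithin_le_nhds
    have ht2 : Tendsto (fun r : ℝ => A ^ 2 / 2 * r ^ 2) (𝓝[>] 0) (𝓝 (A ^ 2 / 2 * 0 ^ 2)) :=
      (Continuous.tendsto (by fun_prop) 0).mono_left nhdsWithin_le_nhds
    have e1 := ht.eventually (ge_mem_nhds (by norm_num : k * (A / 2 * 0 ^ 2) < 1))
    have e2 := ht2.eventually (ge_mem_nhds (by simpa using hδ : A ^ 2 / 2 * 0 ^ 2 < δ))
    have e3 : ∀ᶠ r : ℝ in 𝓝[>] 0, 0 < r := self_mem_nhdsWithin
    obtain ⟨r, h1, h2, h3⟩ := (e1.and (e2.and e3)).exists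
    exact ⟨r, h3, h1, h2⟩
  have h3 := h2 r hr0
  set u := k * (A / 2 * r ^ 2) with hu
  have hu0 : 0 ≤ u := by positivity
  have h4 := Real.abs_exp_sub_one_sub_id_le (x := u) (by rw [abs_of_nonneg hu0]; exact hr1)
  have h5 := (abs_le.1 h4).2
  have h6 : k ^ 2 * r ^ 2 * m ≤ 2 * (u + u ^ 2) := by linarith
  have h7 : 2 * (u + u ^ 2) = k ^ 2 * r ^ 2 * (A / k + A ^ 2 / 2 * r ^ 2) := by
    rw [hu]
    field_simp
  rw [h7] at h6
  have h8 := le_of_mul_le_mul_left h6 (by positivity)
  linarith

/-- first moment of `‖x - w‖` -/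
theorem Lev.first_moment (hk : 0 < k) (h : Lev k c φ ψ) (hA : 0 ≤ A) {y w : E n}
    (hsc : ∀ z, φ (y + z) ≤ φ y + inner ℝ w z + A / 2 * ‖z‖ ^ 2) {σ : ℝ} (hσ : 0 < σ)
    (hAσ : (n : ℝ) * (A / k) ≤ σ ^ 2) :
    Integrable (fun x : E n => ‖x - w‖ * cd k c φ y x) ∧ ∫ x : E n, ‖x - w‖ * cd k c φ y x ≤ σ := by
  let B := stdOrthonormalBasis ℝ (E n)
  have h1 : ∀ i, Integrable (fun x : E n => (inner ℝ (x - w) (B i)) ^ 2 * cd k c φ y x) ∧
      ∫ x : E n, (inner ℝ (x - w) (B i)) ^ 2 * cd k c φ y x ≤ A / k := fun i =>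
    h.second_moment hk hA hsc (B.orthonormal.1 i)
  have hsum : ∀ x : E n, ‖x - w‖ ^ 2 * cd k c φ y x = ∑ i, (inner ℝ (x - w) (B i)) ^ 2 * cd k c φ y x := by
    intro x
    rw [← Finset.sum_mul, B.sum_sq_inner_left]
  have i2 : Integrable (fun x : E n => ‖x - w‖ ^ 2 * cd k c φ y x) := by
    have := integrable_finsetSum Finset.univ fun i _ => (h1 i).1
    refine this.congr (Eventually.of_forall fun x => ?_)
    simp only
    rw [hsum]
  have h2 : ∫ x : E n, ‖x - w‖ ^ 2 * cd k c φ y x ≤ σ ^ 2 := by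
    have : ∫ x : E n, ‖x - w‖ ^ 2 * cd k c φ y x = ∑ i, ∫ x : E n, (inner ℝ (x - w) (B i)) ^ 2 * cd k c φ y x := by
      rw [← integral_finsetSum _ fun i _ => (h1 i).1]
      congr 1
      ext x
      exact hsum x
    rw [this]
    calc ∑ i, ∫ x : E n, (inner ℝ (x - w) (B i)) ^ 2 * cd k c φ y x
        ≤ ∑ _i : Fin (Module.finrank ℝ (E n)), A / k := Finset.sum_le_sum fun i _ => (h1 i).2
      _ = n * (A / k) := by simp [finrank_euclideanSpace_fin]
      _ ≤ σ ^ 2 := hAσ
  have hcd := h.integrable_cd y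
  have i3 : Integrable (fun x : E n => σ / 2 * cd k c φ y x + 1 / (2 * σ) * (‖x - w‖ ^ 2 * cd k c φ y x)) :=
    (hcd.const_mul _).add (i2.const_mul _)
  have hpt : ∀ x : E n, ‖x - w‖ * cd k c φ y x ≤ σ / 2 * cd k c φ y x + 1 / (2 * σ) * (‖x - w‖ ^ 2 * cd k c φ y x) := by
    intro x
    have h3 : ‖x - w‖ ≤ σ / 2 + 1 / (2 * σ) * ‖x - w‖ ^ 2 := by
      have h4 : 0 ≤ (‖x - w‖ - σ) ^ 2 / (2 * σ) := by positivity
      have h5 : (‖x - w‖ - σ) ^ 2 / (2 * σ) = σ / 2 + 1 / (2 * σ) * ‖x - w‖ ^ 2 - ‖x - w‖ := by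
        field_simp
        ring
      linarith
    have := mul_le_mul_of_nonneg_right h3 (cd_pos (k := k) (c := c) (φ := φ) y x).le
    linarith
  have i4 : Integrable (fun x : E n => ‖x - w‖ * cd k c φ y x) := by
    refine i3.mono' ((measurable_norm.comp (measurable_id.sub_const w)).mul
      (measurable_cd h.gc y)).aestronglyMeasurable (Eventually.of_forall fun x => ?_)
    rw [Real.norm_eq_abs, abs_of_nonneg (mul_nonneg (norm_nonneg _) (cd_pos y x).le)]
    exact hpt x
  refine ⟨i4, (integral_mono i4 i3 hpt).trans ?_⟩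
  rw [integral_add (hcd.const_mul _) (i2.const_mul _), integral_const_mul, integral_const_mul, h.integral_cd y]
  have : 1 / (2 * σ) * ∫ x : E n, ‖x - w‖ ^ 2 * cd k c φ y x ≤ 1 / (2 * σ) * σ ^ 2 :=
    mul_le_mul_of_nonneg_left h2 (by positivity)
  have h3 : 1 / (2 * σ) * σ ^ 2 = σ / 2 := by field_simp
  linarith

/-- **the law at level `k`** -/
theorem Lev.law_error (hk : 0 < k) (h : Lev k c φ ψ) (hA : 0 ≤ A) {g : E n → E n} (hg : Measurable g)
    (hsc : ∀ y z, φ (y + z) ≤ φ y + inner ℝ (g y) z + A / 2 * ‖z‖ ^ 2) {σ : ℝ} (hσ : 0 < σ)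
    (hAσ : (n : ℝ) * (A / k) ≤ σ ^ 2) {F : E n → ℝ}
    (hF : Continuous F) (hL : ∀ x y, |F x - F y| ≤ ‖x - y‖) (hM : ∀ x, |F x| ≤ 1) :
    |(∫ z, F (g z) * Real.exp (-Q z)) / Zg n - ∫ x, F x * Real.exp (-Wg k c ψ x)| ≤ σ := by
  have hZ : 0 < Zg n := Zg_pos
  have hji := h.int_joint
  have hFj : Integrable (fun p : E n × E n => F p.1 * jd k c φ p.1 p.2) ((volume : Measure (E n)).prod volume) := by
    refine hji.mono ((hF.comp continuous_fst).aestronglyMeasurable.mul hji.aestronglyMeasurable)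
      (Eventually.of_forall fun p => ?_)
    rw [norm_mul, Real.norm_eq_abs, Real.norm_eq_abs]
    exact mul_le_of_le_one_left (abs_nonneg _) (hM _)
  have hswap := integral_integral_swap (f := fun x z => F x * jd k c φ x z) hFj
  have hx : ∀ x : E n, ∫ z : E n, F x * jd k c φ x z = F x * Real.exp (k * ψ x - k * c x) := by
    intro x
    rw [integral_const_mul, (h.int_z c x).2]
  simp only [hx] at hswap
  have hxm : (∫ x, F x * Real.exp (-Wg k c ψ x)) = (∫ x, F x * Real.exp (k * ψ x - k * c x)) / Zg n := by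
    rw [← integral_div]
    congr 1
    ext x
    rw [exp_Wg]
    ring
  rw [hxm, hswap, ← sub_div, abs_div, abs_of_pos hZ, div_le_iff₀ hZ]
  have hFg : Integrable fun z => F (g z) * Real.exp (-Q z) := by
    refine (integrable_Q (n := n)).mono ((hF.measurable.comp hg).aestronglyMeasurable.mul
      integrable_Q.aestronglyMeasurable) (Eventually.of_forall fun p => ?_)
    rw [norm_mul, Real.norm_eq_abs, Real.norm_eq_abs]
    exact mul_le_of_le_one_left (abs_nonneg _) (hM _)
  have hyi : Integrable fun z => ∫ x, F x * jd k c φ x z := hFj.integral_prod_right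
  rw [← integral_sub hFg hyi, ← Real.norm_eq_abs]
  have hpt : ∀ z : E n, ‖F (g z) * Real.exp (-Q z) - ∫ x, F x * jd k c φ x z‖ ≤ σ * Real.exp (-Q z) := by
    intro z
    have hcd := h.integrable_cd z
    have hcd1 := h.integral_cd z
    have hjc : ∀ x, jd k c φ x z = cd k c φ z x * Real.exp (-Q z) := by
      intro x
      unfold jd cd
      rw [← Real.exp_add]
      congr 1
    have h1 : ∫ x, F x * jd k c φ x z = (∫ x, F x * cd k c φ z x) * Real.exp (-Q z) := by
      rw [← integral_mul_const]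
      congr 1
      ext x
      rw [hjc]
      ring
    have hFi : Integrable fun x => F x * cd k c φ z x := by
      refine hcd.mono (hF.aestronglyMeasurable.mul hcd.aestronglyMeasurable)
        (Eventually.of_forall fun p => ?_)
      rw [norm_mul, Real.norm_eq_abs, Real.norm_eq_abs]
      exact mul_le_of_le_one_left (abs_nonneg _) (hM _)
    have h2 : F (g z) * Real.exp (-Q z) - ∫ x, F x * jd k c φ x z
        = (∫ x, (F (g z) - F x) * cd k c φ z x) * Real.exp (-Q z) := by
      have h3 : (fun x => (F (g z) - F x) * cd k c φ z x)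
          = fun x => F (g z) * cd k c φ z x - F x * cd k c φ z x := by
        ext x
        ring
      rw [h1, h3, integral_sub (hcd.const_mul _) hFi, integral_const_mul, hcd1]
      ring
    rw [h2, norm_mul, Real.norm_eq_abs (Real.exp _), abs_of_pos (Real.exp_pos _)]
    refine mul_le_mul_of_nonneg_right ?_ (Real.exp_pos _).le
    obtain ⟨f1, f2⟩ := h.first_moment hk hA (hsc z) hσ hAσ
    have h4 := norm_integral_le_of_norm_le f1 (f := fun x => (F (g z) - F x) * cd k c φ z x)
      (Eventually.of_forall fun x => by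
        rw [norm_mul, Real.norm_eq_abs, Real.norm_eq_abs, abs_of_pos (cd_pos _ _)]
        refine mul_le_mul_of_nonneg_right ?_ (cd_pos _ _).le
        rw [abs_sub_comm]
        exact hL x (g z))
    exact h4.trans f2
  have h7 := norm_integral_le_of_norm_le ((integrable_Q (n := n)).const_mul σ) (Eventually.of_forall hpt)
  refine h7.trans (le_of_eq ?_)
  rw [integral_const_mul]
  rfl

end cd

/-! ### from regular potentials to level-`k` triples -/

theorem quad_int {k a A : ℝ} (hk : 0 < k) (ha : 0 < a) {f : E n → ℝ} (hf : Continuous f)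
    (h : ∀ x, a / 4 * ‖x‖ ^ 2 - A ≤ f x) (y : E n) :
    Integrable fun x : E n => Real.exp (k * inner ℝ x y - k * f x) :=
  LK.Dsc.integrable_exp_of_quad (a := a / 2) (A := -A) (by positivity) hk hf.measurable
    (fun x => by
      have := h x
      linarith) k y

theorem lev_of {k a b a' b' : ℝ} (hk : 0 < k) {c : E n → ℝ} (hc : Reg c a b)
    (hφ : Reg (phiK k c) a' b') (hψ : Gr (psiG k (phiK k c))) :
    Lev k c (phiK k c) (psiG k (phiK k c)) := by
  obtain ⟨A, hA⟩ := hc.quad_lower
  obtain ⟨A', hA'⟩ := hφ.quad_lower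
  have hk' : k ≠ 0 := hk.ne'
  have i1 : ∀ z : E n, Integrable fun x : E n => Real.exp (k * inner ℝ x z - k * c x) :=
    quad_int hk hc.c_pos hc.cont hA
  have i2 : ∀ x : E n, Integrable fun z : E n => Real.exp (k * inner ℝ x z - k * phiK k c z - Q z) := by
    intro x
    have h1 := quad_int (A := A') (f := fun z => phiK k c z + (1 / k) * Q z) hk hφ.c_pos
      (hφ.cont.add (continuous_const.mul cont_Q)) (fun z => by
        have h2 := hA' z
        have h3 : 0 ≤ (1 / k) * Q z := by
          unfold Q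
          positivity
        linarith) x
    refine h1.congr (Eventually.of_forall fun z => ?_)
    simp only
    rw [real_inner_comm]
    congr 1
    field_simp
    ring
  refine ⟨hc.gr, hφ.gr, hψ, i1, ?_, i2, ?_⟩
  · intro z
    have h1 : k * phiK k c z = Real.log (∫ x : E n, Real.exp (k * inner ℝ x z - k * c x)) := by
      unfold phiK logLap
      simp only [inner_smul_right]
      field_simp
    rw [h1, Real.exp_log (integral_exp_pos (i1 z))]
  · intro x
    have h1 : k * psiG k (phiK k c) x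
        = Real.log (∫ z : E n, Real.exp (k * inner ℝ x z - k * phiK k c z - Q z)) := by
      unfold psiG logLap
      simp only [inner_smul_right, real_inner_comm]
      have e : ∀ z : E n, k * inner ℝ x z - (k * phiK k c z + Q z) = k * inner ℝ x z - k * phiK k c z - Q z :=
        fun z => by ring
      simp only [e]
      field_simp
    rw [h1, Real.exp_log (integral_exp_pos (i2 x))]

theorem potG {V : E n → ℝ} {c₀ C₀ : ℝ} (h : Reg V c₀ C₀) :
    PotG (fun x => V x + Real.log (∫ x, Real.exp (-V x))) := by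
  have hZ := h.Z_pos
  set ZV := ∫ x, Real.exp (-V x) with hZV
  have he : ∀ x, Real.exp (-(V x + Real.log ZV)) = Real.exp (-V x) * ZV⁻¹ := fun x => by
    rw [neg_add, Real.exp_add, Real.exp_neg (Real.log _), Real.exp_log hZ]
  refine ⟨h.gr.add (Gr.const _), ?_, ?_⟩
  · intro f hf
    refine ((h.integrable_gr hf).mul_const ZV⁻¹).congr (ae_of_all _ fun x => ?_)
    simp only [he]
    ring
  · simp only [he]
    rw [integral_mul_const, ← hZV, mul_inv_cancel₀ hZ.ne']

/-- **S-EX2** -/
theorem stmtDescG : StmtDescG := by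
  intro n hn V c₀ C₀ a b m k hV ha hm hk1 hcls hφ ε hε
  have hk : 0 < k := by linarith
  have hn' : (0 : ℝ) < n := by exact_mod_cast hn
  have hZ := hV.Z_pos
  have hP := potG hV
  set ZV := ∫ x, Real.exp (-V x) with hZV
  set V' : E n → ℝ := fun x => V x + Real.log ZV with hV'
  set c : ℕ → E n → ℝ := fun i => itG k a V i with hc
  have hTG : ∀ i x, c (i + 1) x = psiG k (phiK k (c i)) x + V x / k
      - (psiG k (phiK k (c i)) 0 + V 0 / k) := fun i x => rfl
  have hgψ : ∀ i, Gr (psiG k (phiK k (c i))) := by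
    intro i
    have h1 : psiG k (phiK k (c i)) = fun x => (c (i + 1) x - (1 / k) * V x)
        + (psiG k (phiK k (c i)) 0 + V 0 / k) := by
      funext x
      rw [hTG]
      ring
    rw [h1]
    exact ((hcls (i + 1)).reg.gr.sub (hV.gr.const_mul _)).add (Gr.const _)
  have hL : ∀ i, Lev k (c i) (phiK k (c i)) (psiG k (phiK k (c i))) := fun i =>
    lev_of hk (hcls i).reg (hφ i) (hgψ i)
  have hT : ∀ i x, k * c (i + 1) x = V' x + k * psiG k (phiK k (c i)) x
      + (-Real.log ZV - k * (psiG k (phiK k (c i)) 0 + V 0 / k)) := by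
    intro i x
    rw [hTG, hV']
    field_simp
    ring
  obtain ⟨i, hi⟩ := exists_KL hk hP c (fun i => phiK k (c i)) (fun i => psiG k (phiK k (c i))) hL _ hT
    (ε := (ε / 2) ^ 2) (by positivity)
  refine ⟨i, fun F hF hF1 => ?_⟩
  have hN := hφ i
  have hg : Measurable (gradient (phiK k (c i))) :=
    (contDiff_gradient (m := 0) (k := 1) (by norm_num) ((LL.reg_two hN).of_le (by norm_num))).continuous.measurable
  have hLip : ∀ x y, |F x - F y| ≤ ‖x - y‖ := by
    intro x y
    have := hF.dist_le_mul x y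
    rw [Real.dist_eq, dist_eq_norm] at this
    simpa using this
  have hσ : 0 < Real.sqrt (n / (a * k)) := Real.sqrt_pos.2 (by positivity)
  have h1 := (hL i).law_error hk (A := a⁻¹) (by positivity) hg
    (fun y z => by
      rw [inner_gradient]
      exact LL.taylor_upper hN y z) hσ
    (by
      rw [Real.sq_sqrt (by positivity)]
      exact le_of_eq (by field_simp)) hF.continuous hLip hF1
  have hKi : Integrable fun x : E n => (Wg k (c i) (psiG k (phiK k (c i))) x - V' x) * Real.exp (-V' x) :=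
    hP.int _ ((gr_Wg (hL i).gc (hL i).gψ).sub hP.gr)
  have h2 := LK.abs_sub_le_of_KL (μ := (volume : Measure (E n))) (V := V')
    (W := Wg k (c i) (psiG k (phiK k (c i)))) (F := F) (M := 1) (η := ε / 2) (by positivity)
    hP.i0 (hL i).int_W hP.one (hL i).one_W hKi hi hF.continuous.aestronglyMeasurable zero_le_one hF1
  have e1 : ∫ x, F x * Real.exp (-V' x) = Ex V F := by
    unfold Ex
    rw [← hZV, ← integral_div]
    congr 1
    ext x
    have he : Real.exp (-V' x) = Real.exp (-V x) * ZV⁻¹ := by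
      rw [hV']
      simp only
      rw [neg_add, Real.exp_add, Real.exp_neg (Real.log _), Real.exp_log hZ]
    rw [he, div_eq_mul_inv]
    ring
  rw [e1] at h2
  have e2 : Ex Q (fun z => F (gradient (phiK k (c i)) z))
      = (∫ z, F (gradient (phiK k (c i)) z) * Real.exp (-Q z)) / Zg n := rfl
  have h3 : |Ex Q (fun z => F (gradient (phiK k (c i)) z)) - Ex V F|
      ≤ Real.sqrt (n / (a * k)) + 2 * 1 * (ε / 2) := by
    rw [e2]
    have h4 := abs_add_le ((∫ z, F (gradient (phiK k (c i)) z) * Real.exp (-Q z)) / Zg n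
        - ∫ x, F x * Real.exp (-Wg k (c i) (psiG k (phiK k (c i))) x))
      ((∫ x, F x * Real.exp (-Wg k (c i) (psiG k (phiK k (c i))) x)) - Ex V F)
    rw [sub_add_sub_cancel] at h4
    linarith
  have e3 : 2 * 1 * (ε / 2) = ε := by ring
  rw [e3] at h3
  exact h3

end Vale.Agent.P254.S.EX2
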